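import Vale.Agent.P198.M.Flat

/-! # P198 block M: continua and monotonization (`sep_comp`, `bump` are in M/Sep) -/

namespace Vale.Agent.P198
open Set Metric Filter Topology MeasureTheory
variable {Z : Type} [MetricSpace Z]

theorem Loc.flip_M [CompactSpace Z] {f g : C(Z, ℝ)} (h : Loc (1 - f) g) : Loc f (1 - g) := by
  intro η hη
  obtain ⟨k, h1, h2⟩ := h η hη
  refine ⟨1 - k, by rwa [dist_sub_left], fun ξ => ?_⟩
  obtain ⟨T, t1, t2⟩ := h2 ξ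
  have a : LipschitzWith 1 fun y : ℝ => 1 - y :=
    LipschitzWith.of_dist_le_mul fun x y => by rw [dist_sub_left, NNReal.coe_one, one_mul]
  refine ⟨fun y => 1 - T (1 - y), (a.comp (t1.comp a)).weaken (by simp), ?_⟩
  filter_upwards [t2] with ζ hζ
  simpa using hζ

theorem FlatM.low [CompactSpace Z] [ConnectedSpace Z] [LocallyPathConnectedSpace Z] {E F : Set Z}
    {f g : C(Z, ℝ)} (h : FlatM F f g) (hE : ∃ e, f e = 0)
    (hf : ∀ ξ, ∃ K, Cont K ∧ ξ ∈ K ∧ (K ∩ E).Nonempty ∧ ∀ ζ ∈ K, f ζ ≤ f ξ) (ξ : Z) :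
    ∃ K, Cont K ∧ ξ ∈ K ∧ (K ∩ E).Nonempty ∧ ∀ ζ ∈ K, g ζ ≤ g ξ := by
  rcases (h.le ξ).eq_or_lt with e | e
  · obtain ⟨K, k1, k2, k3, k4⟩ := hf ξ
    exact ⟨K, k1, k2, k3, fun ζ hζ => (h.le ζ).trans (e ▸ k4 ζ hζ)⟩
  have hO : IsOpen {x | g ξ < f x} := isOpen_lt continuous_const f.continuous
  have hξ : ξ ∈ {x | g ξ < f x} := e
  have hV := isConnected_connectedComponentIn_iff.2 hξ
  have hVO := connectedComponentIn_subset {x | g ξ < f x} ξ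
  have hξV := mem_connectedComponentIn hξ
  have h1 : closure (connectedComponentIn {x | g ξ < f x} ξ) ⊆ {x | g x ≤ g ξ} := by
    refine closure_minimal (fun ζ hζ => show g ζ ≤ g ξ from not_lt.1 fun h2 => ?_)
      (isClosed_le g.continuous continuous_const)
    obtain ⟨x, hx, hx'⟩ := h.key _ hV.2 ζ hζ ξ hξV h2
    exact absurd (hVO hx) (not_lt.2 hx')
  obtain ⟨ζ, z1, z2⟩ : ∃ ζ ∈ closure (connectedComponentIn {x | g ξ < f x} ξ), f ζ ≤ g ξ := by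
    by_contra hne
    have h2 : closure (connectedComponentIn {x | g ξ < f x} ξ) ⊆
        connectedComponentIn {x | g ξ < f x} ξ :=
      hV.2.closure.subset_connectedComponentIn (subset_closure hξV)
        fun x hx => not_le.1 fun h' => hne ⟨x, hx, h'⟩
    have h3 := IsClopen.eq_univ ⟨closure_subset_iff_isClosed.1 h2, hO.connectedComponentIn⟩ hV.1
    obtain ⟨y, hy⟩ := hE
    have h4 : g ξ < f y := hVO (h3 ▸ mem_univ y)
    linarith [h.nonneg ξ]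
  obtain ⟨K, k1, k2, ⟨y, k3, k4⟩, k5⟩ := hf ζ
  exact ⟨_, Cont.union_M ⟨isClosed_closure.isCompact, hV.closure⟩ k1 z1 k2,
    Or.inl (subset_closure hξV), ⟨y, Or.inr k3, k4⟩, fun x hx => hx.elim (fun hx => h1 hx)
      fun hx => (h.le x).trans ((k5 x hx).trans z2)⟩

/-- Monotonization. -/
theorem monot [CompactSpace Z] [ConnectedSpace Z] [LocallyPathConnectedSpace Z] {E F : Set Z}
    (hE : IsClosed E) (hF : IsClosed F) (hE' : E.Nonempty) (hF' : F.Nonempty) {f : C(Z, ℝ)}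
    (hf : Cond E F f) : ∃ f₁ g : C(Z, ℝ), Loc f f₁ ∧ Loc f₁ g ∧ Cond E F g ∧ Mon E F g ∧
      ∀ K : Set Z, IsPreconnected K → ∀ ξ ∈ K, ∀ ζ ∈ K, ∃ ξ' ∈ K, ∃ ζ' ∈ K,
        |g ξ - g ζ| ≤ |f ξ' - f ζ'| := by
  have e0 : ∀ (k : C(Z, ℝ)) ξ, (1 - k) ξ = 1 - k ξ := fun _ _ => rfl
  obtain ⟨k, hk⟩ := flat_M hE hE' (f := 1 - f) fun ξ => by rw [e0]; linarith [(hf.1 ξ).2]
  have a1 : ∀ ξ, f ξ ≤ (1 - k) ξ := fun ξ => by
    have := hk.le ξ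
    rw [e0] at this ⊢
    linarith
  have a2 : ∀ ξ, (1 - k) ξ ≤ 1 := fun ξ => by rw [e0]; linarith [hk.nonneg ξ]
  have a3 : ∀ ξ ∈ E, (1 - k) ξ = 0 := fun ξ hξ => by
    rw [e0, hk.eq ξ hξ, e0, hf.2.1 ξ hξ]
    ring
  obtain ⟨g, hg⟩ := flat_M hF hF' (f := 1 - k) fun ξ => (hf.1 ξ).1.trans (a1 ξ)
  refine ⟨1 - k, g, (hk.loc fun ξ => by rw [e0]; linarith [(hf.1 ξ).1]).flip_M, hg.loc a2,
    ⟨fun ξ => ⟨hg.nonneg ξ, (hg.le ξ).trans (a2 ξ)⟩,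
      fun ξ hξ => le_antisymm ((hg.le ξ).trans (a3 ξ hξ).le) (hg.nonneg ξ),
      fun ξ hξ => (hg.eq ξ hξ).trans (le_antisymm (a2 ξ) ((hf.2.2 ξ hξ).symm.trans_le (a1 ξ)))⟩,
    fun ξ => ⟨hg.att ξ, hg.low ⟨_, a3 _ hE'.some_mem⟩ (fun x => ?_) ξ⟩, fun K hK ξ hξ ζ hζ => ?_⟩
  · obtain ⟨K, k1, k2, k3, k4⟩ := hk.att x
    exact ⟨K, k1, k2, k3, fun ζ hζ => by rw [e0, e0]; linarith [k4 ζ hζ]⟩
  · obtain ⟨a, ha, b, hb, h1⟩ := osc_M hg.le (hg.key K hK) hξ hζ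
    obtain ⟨c, hc, d, hd, h2⟩ := osc_M hk.le (hk.key K hK) ha hb
    refine ⟨d, hd, c, hc, ?_⟩
    rw [e0, e0, sub_sub_sub_cancel_left] at h1 h2
    exact h1.trans ((abs_sub_comm _ _).trans_le h2)

end Vale.Agent.P198
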