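import Vale.Agent.P198.M.Sep

/-! # P198 block M: one-sided monotonization -/

namespace Vale.Agent.P198
open Set Metric Filter Topology MeasureTheory
variable {Z : Type} [MetricSpace Z] [CompactSpace Z]

/-- `g` is the one-sided monotonization of `f`. -/
structure FlatM (F : Set Z) (f g : C(Z, ℝ)) : Prop where
  nonneg : ∀ ξ, 0 ≤ g ξ
  le : ∀ ξ, g ξ ≤ f ξ
  eq : ∀ ξ ∈ F, g ξ = f ξ
  att : ∀ ξ, ∃ K, Cont K ∧ ξ ∈ K ∧ (K ∩ F).Nonempty ∧ ∀ ζ ∈ K, g ξ ≤ g ζ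
  key : ∀ K, IsPreconnected K → ∀ ξ ∈ K, ∀ ζ ∈ K, g ζ < g ξ → ∃ ζ' ∈ K, f ζ' ≤ g ζ

omit [MetricSpace Z] [CompactSpace Z] in
theorem osc_M {f g : Z → ℝ} (le : ∀ ξ, g ξ ≤ f ξ) {K : Set Z}
    (key : ∀ ξ ∈ K, ∀ ζ ∈ K, g ζ < g ξ → ∃ ζ' ∈ K, f ζ' ≤ g ζ) {ξ ζ : Z} (hξ : ξ ∈ K)
    (hζ : ζ ∈ K) : ∃ ξ' ∈ K, ∃ ζ' ∈ K, |g ξ - g ζ| ≤ |f ξ' - f ζ'| := by
  rcases lt_trichotomy (g ζ) (g ξ) with h | h | h
  · obtain ⟨ζ', h1, h2⟩ := key ξ hξ ζ hζ h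
    refine ⟨ξ, hξ, ζ', h1, ?_⟩
    rw [abs_of_pos (sub_pos.2 h)]
    exact le_trans (by linarith [le ξ]) (le_abs_self _)
  · exact ⟨ξ, hξ, ξ, hξ, by simp [h]⟩
  · obtain ⟨ζ', h1, h2⟩ := key ζ hζ ξ hξ h
    refine ⟨ζ, hζ, ζ', h1, ?_⟩
    rw [abs_sub_comm, abs_of_pos (sub_pos.2 h)]
    exact le_trans (by linarith [le ζ]) (le_abs_self _)

theorem flat_M [ConnectedSpace Z] [LocallyPathConnectedSpace Z] {F : Set Z} (hF : IsClosed F)
    (hF' : F.Nonempty) {f : C(Z, ℝ)} (h0 : ∀ ξ, 0 ≤ f ξ) : ∃ g, FlatM F f g := by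
  let S : Z → Set ℝ := fun ξ => {t | ∃ K, Cont K ∧ ξ ∈ K ∧ (K ∩ F).Nonempty ∧ ∀ ζ ∈ K, t ≤ f ζ}
  have hS0 : ∀ ξ, 0 ∈ S ξ := fun ξ =>
    ⟨univ, ⟨isCompact_univ, isConnected_univ⟩, mem_univ _, by rwa [univ_inter], fun ζ _ => h0 ζ⟩
  have hSb : ∀ ξ, ∀ t ∈ S ξ, t ≤ f ξ := fun ξ t ⟨K, _, h1, _, h2⟩ => h2 ξ h1
  have hle : ∀ ξ, sSup (S ξ) ≤ f ξ := fun ξ => csSup_le ⟨0, hS0 ξ⟩ (hSb ξ)
  have hge : ∀ ξ, ∀ t ∈ S ξ, t ≤ sSup (S ξ) := fun ξ t ht => le_csSup ⟨f ξ, hSb ξ⟩ ht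
  have att : ∀ ξ, sSup (S ξ) ∈ S ξ := fun ξ => by
    have hY : IsCompact {ζ | sSup (S ξ) ≤ f ζ} :=
      (isClosed_le continuous_const f.continuous).isCompact
    have hξ : ξ ∈ {ζ | sSup (S ξ) ≤ f ζ} := hle ξ
    refine ⟨_, cont_comp_M hY hξ, mem_connectedComponentIn hξ, ?_,
      fun ζ hζ => connectedComponentIn_subset {ζ | sSup (S ξ) ≤ f ζ} ξ hζ⟩
    by_contra hne
    obtain ⟨W, hW, h1, h2, h3⟩ := sep_comp hY hF.isOpen_compl hξ fun x hx hx' => hne ⟨x, hx, hx'⟩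
    obtain ⟨a, ha, ha'⟩ := isClosed_frontier.isCompact.exists_forall_le' (s := frontier W)
      (f := fun ζ => -f ζ) f.continuous.neg.continuousOn (a := -sSup (S ξ))
      fun b hb => neg_lt_neg (not_le.1 fun h => disjoint_left.1 h3 hb h)
    obtain ⟨s, ⟨K, k1, k2, ⟨y, k3, k4⟩, k5⟩, hs⟩ :=
      exists_lt_of_lt_csSup ⟨0, hS0 ξ⟩ (show -a < sSup (S ξ) by linarith)
    obtain ⟨x, hx, hx'⟩ := cross_M k1.2.2 hW k2 (h1 (mem_connectedComponentIn hξ)) k3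
      fun h => h2 h k4
    linarith [k5 x hx, ha' x hx']
  have key : ∀ K, IsPreconnected K → ∀ ξ ∈ K, ∀ ζ ∈ K, sSup (S ζ) < sSup (S ξ) →
      ∃ ζ' ∈ K, f ζ' ≤ sSup (S ζ) := fun K hK ξ hξ ζ hζ h => by
    by_contra hne
    have hO : IsOpen {x | sSup (S ζ) < f x} := isOpen_lt continuous_const f.continuous
    have hKO : K ⊆ {x | sSup (S ζ) < f x} := fun x hx => not_le.1 fun h' => hne ⟨x, hx, h'⟩
    have h1 := hK.subset_connectedComponentIn hξ hKO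
    have h2 := (hO.connectedComponentIn (x := ξ)).isConnected_iff_isPathConnected.1
      (isConnected_connectedComponentIn_iff.2 (hKO hξ))
    obtain ⟨γ, hγ⟩ := h2.joinedIn ξ (h1 hξ) ζ (h1 hζ)
    have h3 : Cont (range γ) := ⟨isCompact_range γ.continuous, isConnected_range γ.continuous⟩
    obtain ⟨a, ha, ha'⟩ := h3.1.exists_forall_le' (f := f) f.continuous.continuousOn
      (a := sSup (S ζ)) (by
        rintro _ ⟨t, rfl⟩
        exact connectedComponentIn_subset {x | sSup (S ζ) < f x} ξ (hγ t))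
    obtain ⟨L, l1, l2, ⟨y, l3, l4⟩, l5⟩ := att ξ
    have h4 := hge ζ (min a (sSup (S ξ))) ⟨L ∪ range γ, l1.union_M h3 l2 ⟨0, γ.source⟩,
      Or.inr ⟨1, γ.target⟩, ⟨y, Or.inl l3, l4⟩, fun x hx => hx.elim
        (fun hx => (min_le_right _ _).trans (l5 x hx)) fun hx => (min_le_left _ _).trans (ha' x hx)⟩
    exact absurd h4 (not_le.2 (lt_min ha h))
  have hc : Continuous fun ξ => sSup (S ξ) := by
    refine continuous_iff_continuousAt.2 fun ξ => Metric.tendsto_nhds.2 fun ε hε => ?_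
    have h1 := Metric.tendsto_nhds.1 (f.continuous.tendsto ξ) (ε / 2) (half_pos hε)
    obtain ⟨K, ⟨k1, k2⟩, k3⟩ := (LocallyPathConnectedSpace.path_connected_basis ξ).mem_iff.1 h1
    filter_upwards [k1] with ζ hζ
    obtain ⟨a, ha, b, hb, h⟩ := osc_M hle (key K k2.isConnected.isPreconnected) hζ
      (mem_of_mem_nhds k1)
    have h2 := dist_triangle_right (f a) (f b) (f ξ)
    have h3 : dist (f a) (f ξ) < ε / 2 := k3 ha
    have h4 : dist (f b) (f ξ) < ε / 2 := k3 hb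
    rw [Real.dist_eq] at h2 ⊢
    linarith
  refine ⟨⟨_, hc⟩, fun ξ => hge ξ 0 (hS0 ξ), hle, fun ξ hξ => le_antisymm (hle ξ) (hge ξ _
    ⟨{ξ}, ⟨isCompact_singleton, isConnected_singleton⟩, rfl, ⟨ξ, rfl, hξ⟩, fun ζ hζ => ?_⟩),
    fun ξ => ?_, key⟩
  · rw [mem_singleton_iff.1 hζ]
  · obtain ⟨K, k1, k2, k3, k4⟩ := att ξ
    exact ⟨K, k1, k2, k3, fun ζ hζ => hge ζ _ ⟨K, k1, hζ, k3, k4⟩⟩

/-- A contraction close to the identity that is locally constant at finitely many points. -/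
theorem stair_M (A : Finset ℝ) {ε : ℝ} (hε : 0 < ε) : ∃ φ : ℝ → ℝ, LipschitzWith 1 φ ∧
    (∀ y, |φ y - y| ≤ ε) ∧ ∀ a ∈ A, ∀ᶠ y in 𝓝 a, φ y = φ a := by
  induction A using Finset.induction_on generalizing ε with
  | empty => exact ⟨id, LipschitzWith.id, fun y => by simp [hε.le], by simp⟩
  | insert a A _ ih =>
    obtain ⟨φ, h1, h2, h3⟩ := ih (half_pos hε)
    have hψ : LipschitzWith 1 fun z : ℝ => max (z - ε / 2) (min (z + ε / 2) (φ a)) := by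
      have k1 : LipschitzWith 1 fun z : ℝ => z - ε / 2 :=
        (isometry_add_right (-(ε / 2))).lipschitz
      have k2 : LipschitzWith 1 fun z : ℝ => z + ε / 2 := (isometry_add_right (ε / 2)).lipschitz
      simpa using k1.max (k2.min_const (φ a))
    refine ⟨fun y => max (φ y - ε / 2) (min (φ y + ε / 2) (φ a)),
      (hψ.comp h1).weaken (mul_one _).le, fun y => ?_, fun b hb => ?_⟩
    · have k1 := abs_le.1 (h2 y)
      have k2 := le_max_left (φ y - ε / 2) (min (φ y + ε / 2) (φ a))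
      have k3 : max (φ y - ε / 2) (min (φ y + ε / 2) (φ a)) ≤ φ y + ε / 2 :=
        max_le (by linarith) (min_le_left _ _)
      exact abs_le.2 ⟨by linarith [k1.1], by linarith [k1.2]⟩
    · rcases Finset.mem_insert.1 hb with rfl | hb
      · have k : ∀ z, |z - φ b| ≤ ε / 2 → max (z - ε / 2) (min (z + ε / 2) (φ b)) = φ b :=
          fun z hz => by
            have := abs_le.1 hz
            rw [min_eq_right (by linarith [this.1]), max_eq_right (by linarith [this.2])]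
        filter_upwards [Metric.tendsto_nhds.1 (h1.continuous.tendsto b) _ (half_pos hε)] with y hy
        rw [k _ (le_of_lt hy), k _ (by simp [hε.le, div_nonneg])]
      · filter_upwards [h3 b hb] with y hy
        rw [hy]

theorem FlatM.loc [LocallyPathConnectedSpace Z] {F : Set Z} {f g : C(Z, ℝ)} (h : FlatM F f g)
    (h1 : ∀ ξ, f ξ ≤ 1) : Loc f g := by
  intro η hη
  have hδ := half_pos hη
  set δ := η / 2 with hδe
  obtain ⟨φ, p1, p2, p3⟩ := stair_M ((Finset.Icc 0 ⌈1 / δ⌉).image fun i : ℤ => i * δ) hδ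
  have c1 : ∀ ξ, g ξ ≤ ⌈g ξ / δ⌉ * δ := fun ξ => (div_le_iff₀ hδ).1 (Int.le_ceil _)
  have c2 : ∀ ξ, ⌈g ξ / δ⌉ * δ < g ξ + δ := fun ξ => by
    have := mul_lt_mul_of_pos_right (Int.ceil_lt_add_one (g ξ / δ)) hδ
    rwa [add_mul, div_mul_cancel₀ _ hδ.ne', one_mul] at this
  have key : ∀ ξ, ∃ T : ℝ → ℝ, LipschitzWith 1 T ∧
      ∀ᶠ ζ in 𝓝 ξ, φ (min (f ζ) (⌈g ζ / δ⌉ * δ)) = T (f ζ) := fun ξ => by
    by_cases e : f ξ = ⌈g ξ / δ⌉ * δ ∧ g ξ = ⌈g ξ / δ⌉ * δ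
    · refine ⟨fun _ => φ (⌈g ξ / δ⌉ * δ), (LipschitzWith.const _).weaken zero_le_one, ?_⟩
      have t1 : Tendsto (fun ζ => min (f ζ) (⌈g ζ / δ⌉ * δ)) (𝓝 ξ) (𝓝 (⌈g ξ / δ⌉ * δ)) :=
        tendsto_of_tendsto_of_tendsto_of_le_of_le (e.2 ▸ g.continuous.tendsto ξ)
          (e.1 ▸ f.continuous.tendsto ξ) (fun ζ => le_min (h.le ζ) (c1 ζ)) fun ζ => min_le_left _ _
      refine t1.eventually (p3 _ (Finset.mem_image_of_mem _ (Finset.mem_Icc.2 ⟨?_, ?_⟩)))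
      · exact Int.ceil_nonneg (div_nonneg (h.nonneg ξ) hδ.le)
      · exact Int.ceil_mono (div_le_div_of_nonneg_right ((h.le ξ).trans (h1 ξ)) hδ.le)
    · refine ⟨fun y => φ (min y (⌈g ξ / δ⌉ * δ)),
        (p1.comp (LipschitzWith.id.min_const _)).weaken (mul_one _).le, ?_⟩
      have a1 : ∀ᶠ ζ in 𝓝 ξ, ⌈g ξ / δ⌉ * δ - δ < g ζ :=
        (g.continuous.tendsto ξ).eventually (lt_mem_nhds (by linarith [c2 ξ]))
      have a2 : ∀ᶠ ζ in 𝓝 ξ, g ζ ≤ ⌈g ξ / δ⌉ * δ := by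
        rcases (c1 ξ).lt_or_eq with k | k
        · exact ((g.continuous.tendsto ξ).eventually (gt_mem_nhds k)).mono fun _ => le_of_lt
        · have k1 : g ξ < f ξ := (h.le ξ).lt_of_ne fun k2 => e ⟨k2 ▸ k, k⟩
          obtain ⟨K, ⟨k2, k3⟩, k4⟩ := (LocallyPathConnectedSpace.path_connected_basis ξ).mem_iff.1
            ((f.continuous.tendsto ξ).eventually (lt_mem_nhds k1))
          filter_upwards [k2] with ζ hζ
          rw [← k]
          by_contra k5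
          obtain ⟨x, hx, hx'⟩ := h.key K k3.isConnected.isPreconnected ζ hζ ξ (mem_of_mem_nhds k2)
            (not_le.1 k5)
          exact absurd (k4 hx) (not_lt.2 hx')
      filter_upwards [a1, a2] with ζ b1 b2
      have : ⌈g ζ / δ⌉ = ⌈g ξ / δ⌉ := Int.ceil_eq_iff.2
        ⟨(lt_div_iff₀ hδ).2 (by linarith), (div_le_iff₀ hδ).2 b2⟩
      rw [this]
  have hc : Continuous fun ζ => φ (min (f ζ) (⌈g ζ / δ⌉ * δ)) :=
    continuous_iff_continuousAt.2 fun ξ => by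
      obtain ⟨T, t1, t2⟩ := key ξ
      exact (t1.continuous.comp f.continuous).continuousAt.congr (t2.mono fun _ e => e.symm)
  refine ⟨⟨_, hc⟩, (ContinuousMap.dist_le hη.le).2 fun ξ => ?_, key⟩
  have b1 := abs_le.1 (p2 (min (f ξ) (⌈g ξ / δ⌉ * δ)))
  have b2 : g ξ ≤ min (f ξ) (⌈g ξ / δ⌉ * δ) := le_min (h.le ξ) (c1 ξ)
  have b3 := (min_le_right (f ξ) _).trans_lt (c2 ξ)
  show |φ (min (f ξ) (⌈g ξ / δ⌉ * δ)) - g ξ| ≤ η
  exact abs_le.2 ⟨by linarith [b1.1], by linarith [b1.2]⟩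

end Vale.Agent.P198
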