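import Vale.Agent.P198.Base

/-! # P198 block M: components of compact sets -/

namespace Vale.Agent.P198
open Set Metric Filter Topology MeasureTheory
variable {Z : Type} [MetricSpace Z]

/-- A component of a compact set is cut off by an open set whose frontier misses the set. -/
theorem sep_comp {Y N : Set Z} (hY : IsCompact Y) (hN : IsOpen N) {p : Z} (hp : p ∈ Y)
    (h : connectedComponentIn Y p ⊆ N) :
    ∃ W, IsOpen W ∧ connectedComponentIn Y p ⊆ W ∧ closure W ⊆ N ∧ Disjoint (frontier W) Y := by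
  have : CompactSpace Y := isCompact_iff_compactSpace.1 hY
  have : Nonempty {s : Set Y // IsClopen s ∧ (⟨p, hp⟩ : Y) ∈ s} :=
    ⟨⟨univ, isClopen_univ, mem_univ _⟩⟩
  rw [connectedComponentIn_eq_image hp] at h ⊢
  obtain ⟨⟨A, hA, hpA⟩, hAN⟩ := exists_subset_nhds_of_compactSpace
    (V := fun s : {s : Set Y // IsClopen s ∧ (⟨p, hp⟩ : Y) ∈ s} => s.1) (U := Subtype.val ⁻¹' N)
    (fun s t => ⟨⟨s.1 ∩ t.1, s.2.1.inter t.2.1, s.2.2, t.2.2⟩, inter_subset_left,
      inter_subset_right⟩) (fun s => s.2.1.isClosed) fun x hx =>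
        (hN.preimage continuous_subtype_val).mem_nhds (h ⟨x, by
          rwa [connectedComponent_eq_iInter_isClopen], rfl⟩)
  have h1 : IsCompact (Subtype.val '' A) := hA.isClosed.isCompact.image continuous_subtype_val
  have h2 : IsCompact (Subtype.val '' Aᶜ) :=
    hA.compl.isClosed.isCompact.image continuous_subtype_val
  obtain ⟨W, hW, hAW, hWN⟩ := normal_exists_closure_subset h1.isClosed
    (hN.inter h2.isClosed.isOpen_compl) (by
      rintro _ ⟨x, hx, rfl⟩
      refine ⟨hAN hx, ?_⟩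
      rintro ⟨y, hy, e⟩
      exact hy (Subtype.ext e ▸ hx))
  refine ⟨W, hW, (image_mono (hA.connectedComponent_subset hpA)).trans hAW,
    hWN.trans inter_subset_left, disjoint_left.2 fun y hy hyY => ?_⟩
  rw [hW.frontier_eq] at hy
  by_cases hyA : (⟨y, hyY⟩ : Y) ∈ A
  · exact hy.2 (hAW ⟨_, hyA, rfl⟩)
  · exact (hWN hy.1).2 ⟨_, hyA, rfl⟩

theorem cont_comp_M {Y : Set Z} (hY : IsCompact Y) {p : Z} (hp : p ∈ Y) :
    Cont (connectedComponentIn Y p) := by
  have : CompactSpace Y := isCompact_iff_compactSpace.1 hY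
  refine ⟨?_, isConnected_connectedComponentIn_iff.2 hp⟩
  rw [connectedComponentIn_eq_image hp]
  exact isClosed_connectedComponent.isCompact.image continuous_subtype_val

/-- A preconnected set that meets `W` and the complement of its closure meets the frontier. -/
theorem cross_M {K W : Set Z} (hK : IsPreconnected K) (hW : IsOpen W) {a b : Z} (ha : a ∈ K)
    (haW : a ∈ W) (hb : b ∈ K) (hbW : b ∉ closure W) : ∃ x ∈ K, x ∈ frontier W := by
  by_contra h
  refine hbW (subset_closure (hK.subset_of_closure_inter_subset hW ⟨a, ha, haW⟩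
    (fun x hx => ?_) hb))
  by_contra hx'
  exact h ⟨x, hx.2, by rw [hW.frontier_eq]; exact ⟨hx.1, hx'⟩⟩

theorem Cont.union_M {K L : Set Z} (hK : Cont K) (hL : Cont L) {x : Z} (h1 : x ∈ K) (h2 : x ∈ L) :
    Cont (K ∪ L) := ⟨hK.1.union hL.1, IsConnected.union ⟨x, h1, h2⟩ hK.2 hL.2⟩

/-- Boundary bumping. -/
theorem bump {K : Set Z} (hK : Cont K) {p ζ : Z} (hp : p ∈ K) (hζ : ζ ∈ K) {r : ℝ} (hr : 0 ≤ r)
    (h : r ≤ dist ζ p) :
    ∃ K', Cont K' ∧ K' ⊆ K ∩ closedBall p r ∧ p ∈ K' ∧ ∃ ξ ∈ K', dist ξ p = r := by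
  have hY : IsCompact (K ∩ closedBall p r) := hK.1.inter_right isClosed_closedBall
  have hp' : p ∈ K ∩ closedBall p r := ⟨hp, mem_closedBall_self hr⟩
  refine ⟨_, cont_comp_M hY hp', connectedComponentIn_subset _ _, mem_connectedComponentIn hp', ?_⟩
  by_contra hne
  obtain ⟨W, hW, h1, h2, h3⟩ := sep_comp hY (isOpen_ball (x := p) (ε := r)) hp' fun x hx =>
    lt_of_le_of_ne (connectedComponentIn_subset _ _ hx).2 fun e => hne ⟨x, hx, e⟩
  obtain ⟨x, hx, hx'⟩ := cross_M hK.2.2 hW hp (h1 (mem_connectedComponentIn hp')) hζ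
    fun h' => not_lt.2 h (h2 h')
  exact disjoint_left.1 h3 hx' ⟨hx, ball_subset_closedBall (h2 (frontier_subset_closure hx'))⟩

end Vale.Agent.P198
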